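import Mathlib

open Finset Matrix

set_option linter.unusedSectionVars false

namespace Vale.Agent.P125

variable {S : Type*} [Fintype S] [DecidableEq S]

/-- A stochastic matrix P which is reversible with respect to the probability vector p. -/
structure Rev (p : S → ℝ) (P : Matrix S S ℝ) : Prop where
  p0 : ∀ x, 0 ≤ p x
  p1 : ∑ x, p x = 1
  P0 : ∀ x y, 0 ≤ P x y
  P1 : ∀ x, ∑ y, P x y = 1
  rev : ∀ x y, p x * P x y = p y * P y x

theorem Rev.pow {p : S → ℝ} {P : Matrix S S ℝ} (h : Rev p P) (m : ℕ) : Rev p (P ^ m) := by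
  induction m with
  | zero =>
    refine ⟨h.p0, h.p1, ?_, ?_, ?_⟩
    · intro x y
      simp only [pow_zero, Matrix.one_apply]
      split_ifs <;> norm_num
    · intro x
      simp [Matrix.one_apply]
    · intro x y
      simp only [pow_zero, Matrix.one_apply]
      by_cases hxy : x = y
      · subst hxy; rfl
      · rw [if_neg hxy, if_neg (fun e => hxy e.symm)]
        simp
  | succ m ih =>
    refine ⟨h.p0, h.p1, ?_, ?_, ?_⟩
    · intro x y
      rw [pow_succ, Matrix.mul_apply]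
      exact Finset.sum_nonneg fun z _ => mul_nonneg (ih.P0 x z) (h.P0 z y)
    · intro x
      simp only [pow_succ, Matrix.mul_apply]
      rw [Finset.sum_comm]
      simp only [← Finset.mul_sum, h.P1, mul_one]
      exact ih.P1 x
    · intro x y
      have e1 : p x * (P ^ (m + 1)) x y = ∑ z, p x * ((P ^ m) x z * P z y) := by
        rw [pow_succ, Matrix.mul_apply, Finset.mul_sum]
      have e2 : p y * (P ^ (m + 1)) y x = ∑ z, p y * (P y z * (P ^ m) z x) := by
        rw [pow_succ', Matrix.mul_apply, Finset.mul_sum]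
      rw [e1, e2]
      refine Finset.sum_congr rfl fun z _ => ?_
      have h1 := ih.rev x z
      have h2 := h.rev z y
      calc p x * ((P ^ m) x z * P z y) = (p x * (P ^ m) x z) * P z y := by ring
        _ = (p z * (P ^ m) z x) * P z y := by rw [h1]
        _ = (p z * P z y) * (P ^ m) z x := by ring
        _ = (p y * P y z) * (P ^ m) z x := by rw [h2]
        _ = _ := by ring

/-- Two point expectation. -/
def EE (p : S → ℝ) (Q : Matrix S S ℝ) (g : S → S → ℝ) : ℝ := ∑ x, ∑ y, p x * Q x y * g x y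

section EE
variable {p : S → ℝ} {Q : Matrix S S ℝ}

theorem EE_symm (h : Rev p Q) (g : S → S → ℝ) : EE p Q g = EE p Q (fun x y => g y x) := by
  unfold EE
  rw [Finset.sum_comm]
  refine Finset.sum_congr rfl fun x _ => Finset.sum_congr rfl fun y _ => ?_
  rw [h.rev y x]

theorem EE_mono (h : Rev p Q) {g g' : S → S → ℝ} (hg : ∀ x y, 0 < Q x y → g x y ≤ g' x y) :
    EE p Q g ≤ EE p Q g' := by
  unfold EE
  refine Finset.sum_le_sum fun x _ => Finset.sum_le_sum fun y _ => ?_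
  rcases (h.P0 x y).eq_or_lt with e | e
  · rw [← e]; simp
  · exact mul_le_mul_of_nonneg_left (hg x y e) (mul_nonneg (h.p0 x) (h.P0 x y))

theorem EE_add (g g' : S → S → ℝ) :
    EE p Q (fun x y => g x y + g' x y) = EE p Q g + EE p Q g' := by
  unfold EE
  simp only [mul_add, Finset.sum_add_distrib]

theorem EE_sub (g g' : S → S → ℝ) :
    EE p Q (fun x y => g x y - g' x y) = EE p Q g - EE p Q g' := by
  unfold EE
  simp only [mul_sub, Finset.sum_sub_distrib]

theorem EE_smul (c : ℝ) (g : S → S → ℝ) :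
    EE p Q (fun x y => c * g x y) = c * EE p Q g := by
  unfold EE
  rw [Finset.mul_sum]
  refine Finset.sum_congr rfl fun x _ => ?_
  rw [Finset.mul_sum]
  refine Finset.sum_congr rfl fun y _ => ?_
  ring

theorem EE_sum {ι : Type*} (s : Finset ι) (g : ι → S → S → ℝ) :
    EE p Q (fun x y => ∑ i ∈ s, g i x y) = ∑ i ∈ s, EE p Q (g i) := by
  unfold EE
  rw [Finset.sum_comm (s := s)]
  refine Finset.sum_congr rfl fun x _ => ?_
  rw [Finset.sum_comm (s := s)]
  refine Finset.sum_congr rfl fun y _ => ?_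
  rw [Finset.mul_sum]

theorem EE_left (h : Rev p Q) (u : S → ℝ) : EE p Q (fun x _ => u x) = ∑ x, p x * u x := by
  unfold EE
  refine Finset.sum_congr rfl fun x _ => ?_
  have : ∀ y, p x * Q x y * u x = (p x * u x) * Q x y := fun y => by ring
  simp only [this]
  rw [← Finset.mul_sum, h.P1, mul_one]

theorem EE_right (h : Rev p Q) (u : S → ℝ) : EE p Q (fun _ y => u y) = ∑ x, p x * u x := by
  rw [EE_symm h]
  exact EE_left h u

theorem EE_const (h : Rev p Q) (c : ℝ) : EE p Q (fun _ _ => c) = c := by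
  rw [EE_left h (fun _ => c), ← Finset.sum_mul, h.p1, one_mul]

theorem EE_mul (u v : S → ℝ) :
    EE p Q (fun x y => u x * v y) = ∑ x, p x * (u x * (Q *ᵥ v) x) := by
  unfold EE
  refine Finset.sum_congr rfl fun x _ => ?_
  simp only [Matrix.mulVec, dotProduct]
  rw [Finset.mul_sum, Finset.mul_sum]
  refine Finset.sum_congr rfl fun y _ => ?_
  ring

theorem EE_mul' (h : Rev p Q) (u v : S → ℝ) :
    EE p Q (fun x y => u x * v y) = ∑ x, p x * ((Q *ᵥ u) x * v x) := by
  rw [EE_symm h]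
  have : (fun x y => u y * v x) = (fun x y => v x * u y) := by
    funext x y; ring
  rw [this, EE_mul]
  refine Finset.sum_congr rfl fun x _ => ?_
  ring

theorem sa (h : Rev p Q) (u v : S → ℝ) :
    ∑ x, p x * ((Q *ᵥ u) x * v x) = ∑ x, p x * (u x * (Q *ᵥ v) x) := by
  rw [← EE_mul' h, EE_mul]

theorem st (h : Rev p Q) (u : S → ℝ) :
    ∑ x, p x * (Q *ᵥ u) x = ∑ x, p x * u x := by
  have := EE_mul (p := p) (Q := Q) (fun _ => 1) u
  simp only [one_mul] at this
  rw [← this, EE_right h]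

theorem mv_abs (h : Rev p Q) (u : S → ℝ) (c : ℝ) (hu : ∀ x, |u x| ≤ c) (x : S) :
    |(Q *ᵥ u) x| ≤ c := by
  simp only [Matrix.mulVec, dotProduct]
  calc |∑ y, Q x y * u y| ≤ ∑ y, |Q x y * u y| := Finset.abs_sum_le_sum_abs _ _
    _ ≤ ∑ y, Q x y * c := by
        refine Finset.sum_le_sum fun y _ => ?_
        rw [abs_mul, abs_of_nonneg (h.P0 x y)]
        exact mul_le_mul_of_nonneg_left (hu y) (h.P0 x y)
    _ = c := by rw [← Finset.sum_mul, h.P1, one_mul]

theorem mv_nonneg (h : Rev p Q) (u : S → ℝ) (hu : ∀ x, 0 ≤ u x) (x : S) :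
    0 ≤ (Q *ᵥ u) x := by
  simp only [Matrix.mulVec, dotProduct]
  exact Finset.sum_nonneg fun y _ => mul_nonneg (h.P0 x y) (hu y)

theorem mv_le_abs (h : Rev p Q) (u : S → ℝ) (x : S) :
    |(Q *ᵥ u) x| ≤ (Q *ᵥ (fun y => |u y|)) x := by
  simp only [Matrix.mulVec, dotProduct]
  calc |∑ y, Q x y * u y| ≤ ∑ y, |Q x y * u y| := Finset.abs_sum_le_sum_abs _ _
    _ = ∑ y, Q x y * |u y| := by
        refine Finset.sum_congr rfl fun y _ => ?_
        rw [abs_mul, abs_of_nonneg (h.P0 x y)]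

end EE

/-- Accumulated average. -/
def acc (P : Matrix S S ℝ) (N : ℕ) (v : S → ℝ) (x : S) : ℝ := ∑ m ∈ range N, ((P ^ m) *ᵥ v) x

section acc
variable {p : S → ℝ} {P : Matrix S S ℝ}

theorem mulVec_acc (N : ℕ) (v : S → ℝ) (x : S) :
    (P *ᵥ (acc P N v)) x = ∑ m ∈ range N, ((P ^ (m + 1)) *ᵥ v) x := by
  have : acc P N v = ∑ m ∈ range N, ((P ^ m) *ᵥ v) := by
    funext y; simp [acc]
  rw [this, Matrix.mulVec_sum]
  simp only [Finset.sum_apply, Matrix.mulVec_mulVec, pow_succ']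

theorem acc_succ (N : ℕ) (v : S → ℝ) (x : S) :
    acc P (N + 1) v x = v x + (P *ᵥ (acc P N v)) x := by
  rw [mulVec_acc]
  unfold acc
  rw [Finset.sum_range_succ']
  simp [add_comm]

theorem acc_rec (N : ℕ) (v : S → ℝ) (x : S) :
    (P *ᵥ (acc P N v)) x = acc P N v x + ((P ^ N) *ᵥ v) x - v x := by
  have h1 := acc_succ (P := P) N v x
  have h2 : acc P (N + 1) v x = acc P N v x + ((P ^ N) *ᵥ v) x := by
    unfold acc; rw [Finset.sum_range_succ]
  linarith

theorem acc_abs (h : Rev p P) (N : ℕ) (u : S → ℝ) (c : ℝ) (hu : ∀ x, |u x| ≤ c) (x : S) :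
    |acc P N u x| ≤ N * c := by
  unfold acc
  calc _ ≤ ∑ m ∈ range N, |((P ^ m) *ᵥ u) x| := Finset.abs_sum_le_sum_abs _ _
    _ ≤ ∑ m ∈ range N, c := Finset.sum_le_sum fun m _ => mv_abs (h.pow m) u c hu x
    _ = N * c := by simp

theorem acc_nonneg (h : Rev p P) (N : ℕ) (u : S → ℝ) (hu : ∀ x, 0 ≤ u x) (x : S) :
    0 ≤ acc P N u x :=
  Finset.sum_nonneg fun m _ => mv_nonneg (h.pow m) u hu x

theorem acc_st (h : Rev p P) (N : ℕ) (u : S → ℝ) :
    ∑ x, p x * acc P N u x = N * ∑ x, p x * u x := by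
  unfold acc
  simp only [Finset.mul_sum]
  rw [Finset.sum_comm]
  have : ∀ m ∈ range N, ∑ x, p x * ((P ^ m) *ᵥ u) x = ∑ x, p x * u x := fun m _ => st (h.pow m) u
  rw [Finset.sum_congr rfl this]
  simp [Finset.mul_sum]

theorem acc_le_abs (h : Rev p P) (N : ℕ) (u : S → ℝ) (x : S) :
    |acc P N u x| ≤ acc P N (fun y => |u y|) x := by
  unfold acc
  calc _ ≤ ∑ m ∈ range N, |((P ^ m) *ᵥ u) x| := Finset.abs_sum_le_sum_abs _ _
    _ ≤ _ := Finset.sum_le_sum fun m _ => mv_le_abs (h.pow m) u x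

theorem acc_fsum {ι : Type*} (s : Finset ι) (N : ℕ) (u : ι → S → ℝ) (x : S) :
    acc P N (fun y => ∑ i ∈ s, u i y) x = ∑ i ∈ s, acc P N (u i) x := by
  unfold acc
  rw [Finset.sum_comm]
  refine Finset.sum_congr rfl fun m _ => ?_
  simp only [Matrix.mulVec, dotProduct, Finset.mul_sum]
  rw [Finset.sum_comm]

/-- Core energy inequality. -/
theorem core (h : Rev p P) (N : ℕ) (k u : S → ℝ) (e : ℝ) (he : 0 ≤ e) (hk : ∀ x, 0 ≤ k x)
    (hu : ∀ x, |u x| ≤ e) :
    EE p P (fun x y => acc P N k x * (acc P N u y - acc P N u x) ^ 2)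
      ≤ 5 * ((N : ℝ) * e) ^ 2 * ∑ x, p x * k x := by
  set K := acc P N k with hK
  set U := acc P N u with hU
  have e0 : (fun x y => K x * (U y - U x) ^ 2)
      = (fun x y => (K x * (fun z => U z ^ 2) y - 2 * ((K x * U x) * U y)) + K x * U x ^ 2) := by
    funext x y; ring
  have e1 : EE p P (fun x y => K x * (U y - U x) ^ 2)
      = ∑ x, p x * ((P *ᵥ K) x * U x ^ 2) - 2 * ∑ x, p x * ((K x * U x) * (P *ᵥ U) x)
        + ∑ x, p x * (K x * U x ^ 2) := by
    rw [e0, EE_add, EE_sub, EE_smul, EE_mul' h, EE_left h,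
      EE_mul (fun x => K x * U x) U]
  rw [e1]
  have e2 : ∀ x, (P *ᵥ K) x = K x + ((P ^ N) *ᵥ k) x - k x := fun x => acc_rec N k x
  have e3 : ∀ x, (P *ᵥ U) x = U x + ((P ^ N) *ᵥ u) x - u x := fun x => acc_rec N u x
  have e4 : ∑ x, p x * ((P *ᵥ K) x * U x ^ 2) - 2 * ∑ x, p x * ((K x * U x) * (P *ᵥ U) x)
        + ∑ x, p x * (K x * U x ^ 2)
      = ∑ x, p x * ((((P ^ N) *ᵥ k) x - k x) * U x ^ 2
          - 2 * (K x * U x * (((P ^ N) *ᵥ u) x - u x))) := by
    rw [Finset.mul_sum, ← Finset.sum_sub_distrib, ← Finset.sum_add_distrib]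
    refine Finset.sum_congr rfl fun x _ => ?_
    rw [e2, e3]; ring
  rw [e4]
  have hN : (0 : ℝ) ≤ N := Nat.cast_nonneg N
  have hNe : (0 : ℝ) ≤ (N : ℝ) * e := mul_nonneg hN he
  have hb : ∀ x, (((P ^ N) *ᵥ k) x - k x) * U x ^ 2 - 2 * (K x * U x * (((P ^ N) *ᵥ u) x - u x))
      ≤ ((N : ℝ) * e) ^ 2 * ((P ^ N) *ᵥ k) x + 4 * (N * e ^ 2) * K x := by
    intro x
    have hU1 : |U x| ≤ N * e := acc_abs h N u e hu x
    have hk1 : 0 ≤ ((P ^ N) *ᵥ k) x := mv_nonneg (h.pow N) k hk x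
    have hK1 : 0 ≤ K x := acc_nonneg h N k hk x
    have hu1 : |((P ^ N) *ᵥ u) x| ≤ e := mv_abs (h.pow N) u e hu x
    have hU2 : U x ^ 2 ≤ ((N : ℝ) * e) ^ 2 := by
      rw [← sq_abs]; exact pow_le_pow_left₀ (abs_nonneg _) hU1 2
    have a1 : (((P ^ N) *ᵥ k) x - k x) * U x ^ 2 ≤ ((N : ℝ) * e) ^ 2 * ((P ^ N) *ᵥ k) x := by
      have : (((P ^ N) *ᵥ k) x - k x) * U x ^ 2 ≤ ((P ^ N) *ᵥ k) x * U x ^ 2 := by
        have := mul_nonneg (hk x) (sq_nonneg (U x))
        nlinarith
      have := mul_le_mul_of_nonneg_left hU2 hk1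
      linarith
    have a2 : -(2 * (K x * U x * (((P ^ N) *ᵥ u) x - u x))) ≤ 4 * (N * e ^ 2) * K x := by
      have b1 : |((P ^ N) *ᵥ u) x - u x| ≤ 2 * e := by
        have := abs_sub (((P ^ N) *ᵥ u) x) (u x)
        have := hu x
        linarith
      have b2 : |U x * (((P ^ N) *ᵥ u) x - u x)| ≤ (N * e) * (2 * e) := by
        rw [abs_mul]
        exact mul_le_mul hU1 b1 (abs_nonneg _) hNe
      have b3 := neg_abs_le (U x * (((P ^ N) *ᵥ u) x - u x))
      have b4 : -(U x * (((P ^ N) *ᵥ u) x - u x)) ≤ (N * e) * (2 * e) := by linarith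
      have := mul_le_mul_of_nonneg_left b4 hK1
      linarith
    linarith
  calc ∑ x, p x * ((((P ^ N) *ᵥ k) x - k x) * U x ^ 2
          - 2 * (K x * U x * (((P ^ N) *ᵥ u) x - u x)))
      ≤ ∑ x, p x * (((N : ℝ) * e) ^ 2 * ((P ^ N) *ᵥ k) x + 4 * (N * e ^ 2) * K x) :=
        Finset.sum_le_sum fun x _ => mul_le_mul_of_nonneg_left (hb x) (h.p0 x)
    _ = ((N : ℝ) * e) ^ 2 * ∑ x, p x * ((P ^ N) *ᵥ k) x + 4 * (N * e ^ 2) * ∑ x, p x * K x := by
        rw [Finset.mul_sum, Finset.mul_sum, ← Finset.sum_add_distrib]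
        refine Finset.sum_congr rfl fun x _ => ?_
        ring
    _ = 5 * ((N : ℝ) * e) ^ 2 * ∑ x, p x * k x := by
        rw [st (h.pow N), acc_st h]; ring

end acc

/-- cubes -/
theorem cube_step (a b : ℝ) : |a| ^ 3 - |b| ^ 3 ≤ 3 * a ^ 2 * |a - b| := by
  have h1 : |a| - |b| ≤ |a - b| := abs_sub_abs_le_abs_sub a b
  have ha := abs_nonneg a
  have hb := abs_nonneg b
  have h2 := abs_nonneg (a - b)
  rcases le_total (|a|) (|b|) with h | h
  · have : |a| ^ 3 ≤ |b| ^ 3 := pow_le_pow_left₀ ha h 3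
    have := mul_nonneg (mul_nonneg (by norm_num : (0 : ℝ) ≤ 3) (sq_nonneg a)) h2
    linarith
  · have e : |a| ^ 3 - |b| ^ 3 = (|a| - |b|) * (|a| ^ 2 + |a| * |b| + |b| ^ 2) := by ring
    have e2 : |a| ^ 2 + |a| * |b| + |b| ^ 2 ≤ 3 * |a| ^ 2 := by nlinarith
    have e3 : (|a| - |b|) * (|a| ^ 2 + |a| * |b| + |b| ^ 2) ≤ (|a| - |b|) * (3 * |a| ^ 2) :=
      mul_le_mul_of_nonneg_left e2 (by linarith)
    have e4 : (|a| - |b|) * (3 * |a| ^ 2) ≤ |a - b| * (3 * |a| ^ 2) :=
      mul_le_mul_of_nonneg_right h1 (by positivity)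
    rw [e, ← sq_abs a]
    linarith

/-- backward version: D n = 0. -/
theorem kol (D : ℕ → ℝ) (K : ℕ → ℝ) (n : ℕ) (hn : D n = 0)
    (hD : ∀ t, t < n → |D t - D (t + 1)| ≤ K t) (i : ℕ) (hi : i ≤ n) :
    |D i| ^ 3 ≤ 3 * ∑ t ∈ Ico i n, K t * D t ^ 2 := by
  induction hi using Nat.decreasingInduction with
  | self => simp [hn]
  | of_succ j hj ih =>
    rw [Finset.sum_eq_sum_Ico_succ_bot hj]
    have h1 := cube_step (D j) (D (j + 1))
    have h2 := mul_le_mul_of_nonneg_left (hD j hj) (by positivity : (0 : ℝ) ≤ 3 * D j ^ 2)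
    linarith

/-- forward version. -/
theorem kol' (s : ℕ → ℝ) (t : ℕ) :
    |∑ i ∈ range (t + 1), s i| ^ 3
      ≤ 3 * ∑ j ∈ range (t + 1), |s j| * (∑ i ∈ range (j + 1), s i) ^ 2 := by
  induction t with
  | zero =>
    simp only [zero_add, Finset.range_one, Finset.sum_singleton]
    have := cube_step (s 0) 0
    simp only [abs_zero, sub_zero] at this
    nlinarith [this]
  | succ t ih =>
    rw [Finset.sum_range_succ (fun j => |s j| * (∑ i ∈ range (j + 1), s i) ^ 2)]
    have h1 := cube_step (∑ i ∈ range (t + 1 + 1), s i) (∑ i ∈ range (t + 1), s i)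
    have h2 : ∑ i ∈ range (t + 1 + 1), s i - ∑ i ∈ range (t + 1), s i = s (t + 1) := by
      rw [Finset.sum_range_succ]; ring
    rw [h2] at h1
    linarith

theorem young (d A W : ℝ) (hd : 0 ≤ d) (hA : 0 < A) (h : d ^ 3 ≤ 3 * W) :
    d ≤ W / A ^ 2 + 2 * A / 3 := by
  have h1 : 3 * A ^ 2 * d ≤ d ^ 3 + 2 * A ^ 3 := by
    nlinarith [mul_nonneg (sq_nonneg (d - A)) (by linarith : (0 : ℝ) ≤ d + 2 * A)]
  have h2 : A ^ 2 * d ≤ W + 2 * A ^ 3 / 3 := by linarith
  have hA2 : 0 < A ^ 2 := by positivity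
  have : W / A ^ 2 + 2 * A / 3 = (W + 2 * A ^ 3 / 3) / A ^ 2 := by
    field_simp
  rw [this, le_div_iff₀ hA2]
  linarith

theorem abel (h g : ℕ → ℝ) (n : ℕ) :
    ∑ t ∈ range n, (∑ i ∈ range (t + 1), h i) * g t = ∑ i ∈ range n, h i * ∑ t ∈ Ico i n, g t := by
  simp only [Finset.sum_mul, Finset.mul_sum]
  refine Finset.sum_comm' ?_
  intro t i
  simp only [Finset.mem_range, Finset.mem_Ico]
  omega

section main
variable {p : S → ℝ} {P : Matrix S S ℝ}

/-- energy of a pair (ka, F) along Q -/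
def RR (p : S → ℝ) (Q : Matrix S S ℝ) (ka F : S → ℝ) : ℝ :=
  EE p Q (fun x z => ka x * (F z - F x) ^ 2)

/-- the commutator vector -/
def cc (Q : Matrix S S ℝ) (ka F : S → ℝ) (x : S) : ℝ :=
  (Q *ᵥ ka) x * F x - (Q *ᵥ (fun z => ka z * F z)) x

theorem RR_eq (h : Rev p P) (ka F : S → ℝ) :
    RR p P ka F = ∑ x, p x * ((P *ᵥ ka) x * F x ^ 2)
      - 2 * ∑ x, p x * ((P *ᵥ (fun z => ka z * F z)) x * F x) + ∑ x, p x * (ka x * F x ^ 2) := by
  unfold RR
  have e0 : (fun x z => ka x * (F z - F x) ^ 2)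
      = (fun x z => (ka x * (fun z => F z ^ 2) z - 2 * ((ka x * F x) * F z)) + ka x * F x ^ 2) := by
    funext x z; ring
  rw [e0, EE_add, EE_sub, EE_smul, EE_mul' h, EE_left h, EE_mul' h (fun x => ka x * F x) F]

theorem EE_cross (h : Rev p P) (F c : S → ℝ) :
    EE p P (fun x y => (F y - F x) * (c y - c x))
      = 2 * ∑ x, p x * (c x * F x) - 2 * ∑ x, p x * (c x * (P *ᵥ F) x) := by
  have e0 : (fun x y => (F y - F x) * (c y - c x))
      = (fun x y => ((c y * F y) + (c x * F x)) - (F x * c y + c x * F y)) := by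
    funext x y; ring
  rw [e0, EE_sub, EE_add, EE_add, EE_left h (fun x => c x * F x),
    EE_right h (fun x => c x * F x), EE_mul' h F c, EE_mul c F]
  have : ∑ x, p x * ((P *ᵥ F) x * c x) = ∑ x, p x * (c x * (P *ᵥ F) x) :=
    Finset.sum_congr rfl fun x _ => by ring
  rw [this]; ring

theorem RR_step (h : Rev p P) (m : ℕ) (ka F : S → ℝ) :
    RR p (P ^ (m + 1)) ka F - RR p (P ^ m) ka F
      = EE p P (fun x y => ((P ^ m) *ᵥ ka) x * (F y - F x) ^ 2)
        - EE p P (fun x y => (F y - F x) * (cc (P ^ m) ka F y - cc (P ^ m) ka F x)) := by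
  rw [RR_eq (h.pow (m + 1)), RR_eq (h.pow m), EE_cross h]
  set a := (P ^ m) *ᵥ ka with ha
  set b := (P ^ m) *ᵥ (fun z => ka z * F z) with hb
  have e1 : (P ^ (m + 1)) *ᵥ ka = P *ᵥ a := by
    rw [ha, Matrix.mulVec_mulVec, pow_succ']
  have e2 : (P ^ (m + 1)) *ᵥ (fun z => ka z * F z) = P *ᵥ b := by
    rw [hb, Matrix.mulVec_mulVec, pow_succ']
  rw [e1, e2]
  have e3 : EE p P (fun x y => a x * (F y - F x) ^ 2)
      = ∑ x, p x * ((P *ᵥ a) x * F x ^ 2) - 2 * ∑ x, p x * ((a x * F x) * (P *ᵥ F) x)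
        + ∑ x, p x * (a x * F x ^ 2) := by
    have e0 : (fun x y => a x * (F y - F x) ^ 2)
        = (fun x y => (a x * (fun z => F z ^ 2) y - 2 * ((a x * F x) * F y)) + a x * F x ^ 2) := by
      funext x y; ring
    rw [e0, EE_add, EE_sub, EE_smul, EE_mul' h, EE_left h, EE_mul (fun x => a x * F x) F]
  have e4 : ∀ x, cc (P ^ m) ka F x = a x * F x - b x := fun x => rfl
  have e5 : ∑ x, p x * ((P *ᵥ b) x * F x) = ∑ x, p x * (b x * (P *ᵥ F) x) := sa h b F
  rw [e3, e5]
  simp only [e4]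
  have e6 : ∑ x, p x * ((a x * F x - b x) * F x)
      = ∑ x, p x * (a x * F x ^ 2) - ∑ x, p x * (b x * F x) := by
    rw [← Finset.sum_sub_distrib]
    exact Finset.sum_congr rfl fun x _ => by ring
  have e7 : ∑ x, p x * ((a x * F x - b x) * (P *ᵥ F) x)
      = ∑ x, p x * ((a x * F x) * (P *ᵥ F) x) - ∑ x, p x * (b x * (P *ᵥ F) x) := by
    rw [← Finset.sum_sub_distrib]
    exact Finset.sum_congr rfl fun x _ => by ring
  rw [e6, e7]
  ring

/-- the source term -/
def tau (P : Matrix S S ℝ) (m : ℕ) (ka F : S → ℝ) (x : S) : ℝ :=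
  ∑ y, P x y * ((F x - F y) * ((P ^ m) *ᵥ ka) y)

theorem cc_zero (ka F : S → ℝ) (x : S) : cc (P ^ 0) ka F x = 0 := by
  simp [cc]

theorem cc_succ (m : ℕ) (ka F : S → ℝ) (x : S) :
    cc (P ^ (m + 1)) ka F x = (P *ᵥ (cc (P ^ m) ka F)) x + tau P m ka F x := by
  unfold tau
  have e1 : (P ^ (m + 1)) *ᵥ ka = P *ᵥ ((P ^ m) *ᵥ ka) := by
    rw [Matrix.mulVec_mulVec, pow_succ']
  have e2 : (P ^ (m + 1)) *ᵥ (fun z => ka z * F z) = P *ᵥ ((P ^ m) *ᵥ (fun z => ka z * F z)) := by
    rw [Matrix.mulVec_mulVec, pow_succ']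
  have e0 : cc (P ^ (m + 1)) ka F x = (P *ᵥ ((P ^ m) *ᵥ ka)) x * F x
      - (P *ᵥ ((P ^ m) *ᵥ (fun z => ka z * F z))) x := by
    unfold cc; rw [e1, e2]
  rw [e0]
  simp only [Matrix.mulVec, dotProduct, Finset.sum_mul]
  rw [← Finset.sum_sub_distrib, ← Finset.sum_add_distrib]
  refine Finset.sum_congr rfl fun y _ => ?_
  simp only [cc, Matrix.mulVec, dotProduct]
  ring

theorem mulVec_fsum {ι : Type*} (s : Finset ι) (u : ι → S → ℝ) (x : S) :
    (P *ᵥ (fun y => ∑ i ∈ s, u i y)) x = ∑ i ∈ s, (P *ᵥ (u i)) x := by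
  simp only [Matrix.mulVec, dotProduct, Finset.mul_sum]
  rw [Finset.sum_comm]

/-- the accumulated commutator is a sum of accumulated sources -/
theorem cc_sum (M : ℕ) (ka F : S → ℝ) (x : S) :
    ∑ m ∈ range M, cc (P ^ m) ka F x = ∑ i ∈ range M, acc P (M - 1 - i) (tau P i ka F) x := by
  induction M generalizing x with
  | zero => simp
  | succ M ih =>
    rw [Finset.sum_range_succ', cc_zero, add_zero]
    have e1 : ∀ m ∈ range M, cc (P ^ (m + 1)) ka F x
        = (P *ᵥ (cc (P ^ m) ka F)) x + tau P m ka F x := fun m _ => cc_succ m ka F x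
    rw [Finset.sum_congr rfl e1, Finset.sum_add_distrib, ← mulVec_fsum]
    have e2 : (fun y => ∑ m ∈ range M, cc (P ^ m) ka F y)
        = (fun y => ∑ i ∈ range M, acc P (M - 1 - i) (tau P i ka F) y) := funext fun y => ih y
    rw [e2, mulVec_fsum, Finset.sum_range_succ]
    have e3 : acc P (M + 1 - 1 - M) (tau P M ka F) x = 0 := by
      simp [acc]
    rw [e3, add_zero, ← Finset.sum_add_distrib]
    refine Finset.sum_congr rfl fun i hi => ?_
    have hi' := Finset.mem_range.mp hi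
    have e4 : M + 1 - 1 - i = (M - 1 - i) + 1 := by omega
    rw [e4, acc_succ, add_comm]

theorem RR_zero (ka F : S → ℝ) : RR p (P ^ 0) ka F = 0 := by
  unfold RR EE
  refine Finset.sum_eq_zero fun x _ => Finset.sum_eq_zero fun y _ => ?_
  simp only [pow_zero, Matrix.one_apply]
  by_cases hxy : x = y
  · subst hxy; simp
  · simp [hxy]

theorem RR_sum (h : Rev p P) (M : ℕ) (ka F : S → ℝ) :
    RR p (P ^ M) ka F
      = ∑ m ∈ range M, EE p P (fun x y => ((P ^ m) *ᵥ ka) x * (F y - F x) ^ 2)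
        - ∑ i ∈ range M, EE p P (fun x y => (F y - F x) *
            (acc P (M - 1 - i) (tau P i ka F) y - acc P (M - 1 - i) (tau P i ka F) x)) := by
  have e1 : RR p (P ^ M) ka F = ∑ m ∈ range M, (RR p (P ^ (m + 1)) ka F - RR p (P ^ m) ka F) := by
    rw [Finset.sum_range_sub (fun m => RR p (P ^ m) ka F), RR_zero, sub_zero]
  rw [e1]
  simp only [RR_step h]
  rw [Finset.sum_sub_distrib, ← EE_sum, ← EE_sum, ← EE_sum]
  congr 1
  congr 1
  funext x y
  rw [← Finset.mul_sum, ← Finset.mul_sum, Finset.sum_sub_distrib, Finset.sum_sub_distrib,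
    cc_sum, cc_sum]

/-- partial sums of the coordinates -/
def FF (f : S → ℕ → ℝ) (t : ℕ) (x : S) : ℝ := ∑ i ∈ range (t + 1), f x i

/-- mean step in coordinate t -/
def kap (P : Matrix S S ℝ) (f : S → ℕ → ℝ) (t : ℕ) (x : S) : ℝ := ∑ y, P x y * |f y t - f x t|

theorem kap_nonneg (h : Rev p P) (f : S → ℕ → ℝ) (t : ℕ) (x : S) : 0 ≤ kap P f t x :=
  Finset.sum_nonneg fun y _ => mul_nonneg (h.P0 x y) (abs_nonneg _)

/-- l1 length of a step -/
def ww (f : S → ℕ → ℝ) (n : ℕ) (x y : S) : ℝ := ∑ t ∈ range n, |f y t - f x t|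

theorem ww_nonneg (f : S → ℕ → ℝ) (n : ℕ) (x y : S) : 0 ≤ ww f n x y :=
  Finset.sum_nonneg fun _ _ => abs_nonneg _

theorem kap_sum (f : S → ℕ → ℝ) (n : ℕ) (d : ℝ)
    (hd : ∀ x, ∑ y, P x y * ww f n x y ≤ d) (x : S) :
    ∑ t ∈ range n, kap P f t x ≤ d := by
  unfold kap
  rw [Finset.sum_comm]
  refine le_trans (le_of_eq ?_) (hd x)
  refine Finset.sum_congr rfl fun y _ => ?_
  rw [← Finset.mul_sum]; rfl

theorem EE_ww (h : Rev p P) (f : S → ℕ → ℝ) (n : ℕ) (d : ℝ)
    (hd : ∀ x, ∑ y, P x y * ww f n x y ≤ d) : EE p P (ww f n) ≤ d := by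
  unfold EE
  calc ∑ x, ∑ y, p x * P x y * ww f n x y ≤ ∑ x, p x * d := by
        refine Finset.sum_le_sum fun x _ => ?_
        have := mul_le_mul_of_nonneg_left (hd x) (h.p0 x)
        refine le_trans (le_of_eq ?_) this
        rw [Finset.mul_sum]
        exact Finset.sum_congr rfl fun y _ => by ring
    _ = d := by rw [← Finset.sum_mul, h.p1, one_mul]

theorem FF_diff (f : S → ℕ → ℝ) (n : ℕ) (x y : S) (t : ℕ) (ht : t < n) :
    |FF f t y - FF f t x| ≤ ww f n x y := by
  unfold FF ww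
  rw [← Finset.sum_sub_distrib]
  calc _ ≤ ∑ i ∈ range (t + 1), |f y i - f x i| := Finset.abs_sum_le_sum_abs _ _
    _ ≤ ∑ i ∈ range n, |f y i - f x i| := by
        refine Finset.sum_le_sum_of_subset_of_nonneg ?_ fun _ _ _ => abs_nonneg _
        intro i hi
        rw [Finset.mem_range] at hi ⊢
        omega

theorem mvk_sum (h : Rev p P) (f : S → ℕ → ℝ) (n : ℕ) (d : ℝ)
    (hd : ∀ x, ∑ y, P x y * ww f n x y ≤ d) (m : ℕ) (x : S) :
    ∑ t ∈ range n, ((P ^ m) *ᵥ (kap P f t)) x ≤ d := by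
  rw [← mulVec_fsum]
  refine le_trans (le_abs_self _) ?_
  refine mv_abs (h.pow m) _ d (fun y => ?_) x
  rw [abs_of_nonneg (Finset.sum_nonneg fun t _ => kap_nonneg h f t y)]
  exact kap_sum f n d hd y

theorem tau_sum (h : Rev p P) (f : S → ℕ → ℝ) (n : ℕ) (d : ℝ) (hd0 : 0 ≤ d)
    (hd : ∀ x, ∑ y, P x y * ww f n x y ≤ d) (m : ℕ) (x : S) :
    ∑ t ∈ range n, |tau P m (kap P f t) (FF f t) x| ≤ d ^ 2 := by
  have h1 : ∀ t ∈ range n, |tau P m (kap P f t) (FF f t) x|
      ≤ ∑ y, P x y * ww f n x y * ((P ^ m) *ᵥ (kap P f t)) y := by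
    intro t ht
    have ht' := Finset.mem_range.mp ht
    unfold tau
    refine le_trans (Finset.abs_sum_le_sum_abs _ _) (Finset.sum_le_sum fun y _ => ?_)
    rw [abs_mul, abs_of_nonneg (h.P0 x y), mul_assoc]
    refine mul_le_mul_of_nonneg_left ?_ (h.P0 x y)
    rw [abs_mul]
    have hn : 0 ≤ ((P ^ m) *ᵥ (kap P f t)) y :=
      mv_nonneg (h.pow m) _ (fun z => kap_nonneg h f t z) y
    rw [abs_of_nonneg hn]
    have := FF_diff f n x y t ht'
    rw [abs_sub_comm] at this
    exact mul_le_mul_of_nonneg_right this hn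
  refine le_trans (Finset.sum_le_sum h1) ?_
  rw [Finset.sum_comm]
  calc ∑ y, ∑ t ∈ range n, P x y * ww f n x y * ((P ^ m) *ᵥ (kap P f t)) y
      ≤ ∑ y, P x y * ww f n x y * d := by
        refine Finset.sum_le_sum fun y _ => ?_
        rw [← Finset.mul_sum]
        exact mul_le_mul_of_nonneg_left (mvk_sum h f n d hd m y)
          (mul_nonneg (h.P0 x y) (ww_nonneg f n x y))
    _ ≤ d ^ 2 := by
        rw [← Finset.sum_mul, sq]
        exact mul_le_mul_of_nonneg_right (hd x) hd0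

theorem phi_bound (h : Rev p P) (f : S → ℕ → ℝ) (n : ℕ) (d : ℝ)
    (hf : ∀ x y, 0 < P x y → ww f n x y ≤ 1)
    (hd : ∀ x, ∑ y, P x y * ww f n x y ≤ d)
    (v : ℕ → S → ℝ) (e : ℝ) (he : 0 ≤ e)
    (hv : ∀ x, ∑ t ∈ range n, |v t x| ≤ e) (N : ℕ) (A : ℝ) (hA : 0 < A)
    (hN : (N : ℝ) ^ 2 * e ^ 3 ≤ d * A ^ 3) :
    -(∑ t ∈ range n, EE p P (fun x y => (FF f t y - FF f t x)
        * (acc P N (v t) y - acc P N (v t) x))) ≤ 11 * (d * A) := by
  set K : ℕ → S → ℝ := fun t => acc P N (fun y => |v t y|) with hK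
  set U : ℕ → S → ℝ := fun i => acc P N (fun y => ∑ t ∈ Ico i n, v t y) with hU
  have hUs : ∀ i x, U i x = ∑ t ∈ Ico i n, acc P N (v t) x := by
    intro i x
    simp only [hU]
    rw [acc_fsum]
  set W : S → S → ℝ := fun x y => ∑ t ∈ range n, (K t x + K t y) * (U t y - U t x) ^ 2 with hW
  have key : ∀ x y, 0 < P x y → -(∑ t ∈ range n, (FF f t y - FF f t x)
        * (acc P N (v t) y - acc P N (v t) x))
        ≤ (1 / A ^ 2) * W x y + (2 * A / 3) * ww f n x y := by
    intro x y hxy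
    have hWn : ∀ t x, 0 ≤ K t x := fun t x => acc_nonneg h N _ (fun y => abs_nonneg _) x
    have hD : ∀ i, i ≤ n → |U i y - U i x| ^ 3 ≤ 3 * W x y := by
      intro i hi
      have h1 := kol (fun i => U i y - U i x) (fun t => K t x + K t y) n
        (by simp [hUs]) (by
          intro t ht
          have e : U t y - U t x - (U (t + 1) y - U (t + 1) x)
              = acc P N (v t) y - acc P N (v t) x := by
            rw [hUs, hUs, hUs, hUs, Finset.sum_eq_sum_Ico_succ_bot ht,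
              Finset.sum_eq_sum_Ico_succ_bot ht]
            ring
          show |U t y - U t x - (U (t + 1) y - U (t + 1) x)| ≤ K t x + K t y
          rw [e]
          have a1 := acc_le_abs h N (v t) y
          have a2 := acc_le_abs h N (v t) x
          have a3 := abs_sub (acc P N (v t) y) (acc P N (v t) x)
          simp only [hK]
          linarith) i hi
      refine le_trans h1 (mul_le_mul_of_nonneg_left ?_ (by norm_num))
      refine Finset.sum_le_sum_of_subset_of_nonneg ?_ fun t _ _ =>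
        mul_nonneg (add_nonneg (hWn t x) (hWn t y)) (sq_nonneg _)
      intro t ht
      rw [Finset.mem_Ico] at ht
      exact Finset.mem_range.mpr ht.2
    have e1 : ∑ t ∈ range n, (FF f t y - FF f t x) * (acc P N (v t) y - acc P N (v t) x)
        = ∑ i ∈ range n, (f y i - f x i) * (U i y - U i x) := by
      have := abel (fun i => f y i - f x i) (fun t => acc P N (v t) y - acc P N (v t) x) n
      have e2 : ∀ t, FF f t y - FF f t x = ∑ i ∈ range (t + 1), (f y i - f x i) := by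
        intro t; unfold FF; rw [Finset.sum_sub_distrib]
      simp only [e2]
      rw [this]
      refine Finset.sum_congr rfl fun i _ => ?_
      rw [hUs, hUs, Finset.sum_sub_distrib]
    rw [e1]
    have hB0 : 0 ≤ W x y := Finset.sum_nonneg fun t _ =>
        mul_nonneg (add_nonneg (hWn t x) (hWn t y)) (sq_nonneg _)
    have hB1 : 0 ≤ (1 / A ^ 2) * W x y := by positivity
    calc -(∑ i ∈ range n, (f y i - f x i) * (U i y - U i x))
        ≤ |∑ i ∈ range n, (f y i - f x i) * (U i y - U i x)| := neg_le_abs _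
      _ ≤ ∑ i ∈ range n, |(f y i - f x i) * (U i y - U i x)| := Finset.abs_sum_le_sum_abs _ _
      _ ≤ ∑ i ∈ range n, |f y i - f x i| * ((1 / A ^ 2) * W x y + 2 * A / 3) := by
          refine Finset.sum_le_sum fun i hi => ?_
          rw [abs_mul]
          refine mul_le_mul_of_nonneg_left ?_ (abs_nonneg _)
          have := young (|U i y - U i x|) A (W x y) (abs_nonneg _) hA
            (hD i (Finset.mem_range.mp hi).le)
          rw [one_div, ← div_eq_inv_mul]
          exact this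
      _ = ww f n x y * ((1 / A ^ 2) * W x y) + (2 * A / 3) * ww f n x y := by
          rw [← Finset.sum_mul]
          unfold ww
          ring
      _ ≤ 1 * ((1 / A ^ 2) * W x y) + (2 * A / 3) * ww f n x y := by
          have := mul_le_mul_of_nonneg_right (hf x y hxy) hB1
          linarith
      _ = _ := by rw [one_mul]
  have hEW : EE p P W ≤ 10 * ((N : ℝ) ^ 2 * e ^ 3) := by
    have e1 : EE p P W = ∑ t ∈ range n, EE p P (fun x y => (K t x + K t y) * (U t y - U t x) ^ 2) := by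
      rw [← EE_sum]
    have e2 : ∀ t ∈ range n, EE p P (fun x y => (K t x + K t y) * (U t y - U t x) ^ 2)
        ≤ 10 * ((N : ℝ) * e) ^ 2 * ∑ x, p x * |v t x| := by
      intro t ht
      have e3 : (fun x y => (K t x + K t y) * (U t y - U t x) ^ 2)
          = (fun x y => K t x * (U t y - U t x) ^ 2 + K t y * (U t x - U t y) ^ 2) := by
        funext x y; ring
      have e4 : EE p P (fun x y => K t y * (U t x - U t y) ^ 2)
          = EE p P (fun x y => K t x * (U t y - U t x) ^ 2) := by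
        rw [EE_symm h]
      rw [e3, EE_add, e4]
      have := core h N (fun y => |v t y|) (fun y => ∑ t ∈ Ico t n, v t y) e he
        (fun x => abs_nonneg _) (by
          intro x
          refine le_trans (Finset.abs_sum_le_sum_abs _ _) (le_trans ?_ (hv x))
          refine Finset.sum_le_sum_of_subset_of_nonneg ?_ fun _ _ _ => abs_nonneg _
          intro j hj
          rw [Finset.mem_Ico] at hj
          exact Finset.mem_range.mpr hj.2)
      simp only [hK, hU]
      linarith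
    rw [e1]
    refine le_trans (Finset.sum_le_sum e2) ?_
    rw [← Finset.mul_sum, Finset.sum_comm]
    simp only [← Finset.mul_sum]
    have : ∑ x, p x * ∑ t ∈ range n, |v t x| ≤ ∑ x, p x * e :=
      Finset.sum_le_sum fun x _ => mul_le_mul_of_nonneg_left (hv x) (h.p0 x)
    rw [← Finset.sum_mul, h.p1, one_mul] at this
    have hN2 : (0 : ℝ) ≤ 10 * ((N : ℝ) * e) ^ 2 := by positivity
    have := mul_le_mul_of_nonneg_left this hN2
    refine le_trans this (le_of_eq (by ring))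
  have hfin : -(∑ t ∈ range n, EE p P (fun x y => (FF f t y - FF f t x)
        * (acc P N (v t) y - acc P N (v t) x)))
      ≤ EE p P (fun x y => (1 / A ^ 2) * W x y + (2 * A / 3) * ww f n x y) := by
    rw [← EE_sum]
    have e1 : -(EE p P (fun x y => ∑ t ∈ range n, (FF f t y - FF f t x)
        * (acc P N (v t) y - acc P N (v t) x)))
        = EE p P (fun x y => (-1) * ∑ t ∈ range n, (FF f t y - FF f t x)
        * (acc P N (v t) y - acc P N (v t) x)) := by
      rw [EE_smul]; ring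
    rw [e1]
    refine EE_mono h fun x y hxy => ?_
    have := key x y hxy
    linarith
  refine le_trans hfin ?_
  rw [EE_add, EE_smul, EE_smul]
  have hA2 : 0 < A ^ 2 := by positivity
  have h1 : (1 / A ^ 2) * EE p P W ≤ 10 * (d * A) := by
    rw [one_div, ← div_eq_inv_mul, div_le_iff₀ hA2]
    calc EE p P W ≤ 10 * ((N : ℝ) ^ 2 * e ^ 3) := hEW
      _ ≤ 10 * (d * A ^ 3) := by linarith
      _ = _ := by ring
  have h2 : (2 * A / 3) * EE p P (ww f n) ≤ (2 * A / 3) * d :=
    mul_le_mul_of_nonneg_left (EE_ww h f n d hd) (by positivity)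
  have h3 : 0 ≤ d * A := by
    have h4 : 0 ≤ EE p P (ww f n) := by
      unfold EE
      exact Finset.sum_nonneg fun x _ => Finset.sum_nonneg fun y _ =>
        mul_nonneg (mul_nonneg (h.p0 x) (h.P0 x y)) (ww_nonneg f n x y)
    exact mul_nonneg (le_trans h4 (EE_ww h f n d hd)) hA.le
  linarith

theorem R_bound (h : Rev p P) (f : S → ℕ → ℝ) (n : ℕ) (d : ℝ) (hd0 : 0 ≤ d)
    (hf : ∀ x y, 0 < P x y → ww f n x y ≤ 1)
    (hd : ∀ x, ∑ y, P x y * ww f n x y ≤ d) (M : ℕ) (A : ℝ) (hA : 0 < A)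
    (hM : (M : ℝ) ^ 2 * (d ^ 2) ^ 3 ≤ d * A ^ 3) :
    ∑ t ∈ range n, RR p (P ^ M) (kap P f t) (FF f t) ≤ M * (d ^ 2 + 11 * (d * A)) := by
  simp only [RR_sum h]
  rw [Finset.sum_sub_distrib, Finset.sum_comm, Finset.sum_comm (s := range n) (t := range M)]
  have h1 : ∀ m ∈ range M, ∑ t ∈ range n, EE p P (fun x y =>
      ((P ^ m) *ᵥ (kap P f t)) x * (FF f t y - FF f t x) ^ 2) ≤ d ^ 2 := by
    intro m _
    rw [← EE_sum]
    have : EE p P (fun x y => ∑ t ∈ range n,
      ((P ^ m) *ᵥ (kap P f t)) x * (FF f t y - FF f t x) ^ 2)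
        ≤ EE p P (fun x y => d * ww f n x y) := by
      refine EE_mono h fun x y hxy => ?_
      have h3 : ∀ t ∈ range n, ((P ^ m) *ᵥ (kap P f t)) x * (FF f t y - FF f t x) ^ 2
          ≤ ((P ^ m) *ᵥ (kap P f t)) x * ww f n x y := by
        intro t ht
        have hn : 0 ≤ ((P ^ m) *ᵥ (kap P f t)) x :=
          mv_nonneg (h.pow m) _ (fun z => kap_nonneg h f t z) x
        refine mul_le_mul_of_nonneg_left ?_ hn
        have h4 := FF_diff f n x y t (Finset.mem_range.mp ht)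
        have h5 := hf x y hxy
        have h6 := ww_nonneg f n x y
        rw [← sq_abs]
        nlinarith [abs_nonneg (FF f t y - FF f t x)]
      refine le_trans (Finset.sum_le_sum h3) ?_
      rw [← Finset.sum_mul]
      exact mul_le_mul_of_nonneg_right (mvk_sum h f n d hd m x) (ww_nonneg f n x y)
    rw [EE_smul] at this
    have h7 := mul_le_mul_of_nonneg_left (EE_ww h f n d hd) hd0
    rw [sq]
    exact le_trans this h7
  have h2 : ∀ i ∈ range M, -(∑ t ∈ range n, EE p P (fun x y => (FF f t y - FF f t x) *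
            (acc P (M - 1 - i) (tau P i (kap P f t) (FF f t)) y
              - acc P (M - 1 - i) (tau P i (kap P f t) (FF f t)) x))) ≤ 11 * (d * A) := by
    intro i _
    refine phi_bound h f n d hf hd (fun t => tau P i (kap P f t) (FF f t)) (d ^ 2)
      (by positivity) (tau_sum h f n d hd0 hd i) (M - 1 - i) A hA ?_
    refine le_trans ?_ hM
    have : ((M - 1 - i : ℕ) : ℝ) ≤ M := by
      exact_mod_cast (by omega : M - 1 - i ≤ M)
    exact mul_le_mul_of_nonneg_right (pow_le_pow_left₀ (Nat.cast_nonneg _) this 2) (by positivity)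
  have h3 := Finset.sum_le_sum h1
  have h4 := Finset.sum_le_sum h2
  simp only [Finset.sum_const, Finset.card_range, nsmul_eq_mul,
    Finset.sum_neg_distrib] at h3 h4
  linarith

/-- weighted transition matrix -/
def DD (P : Matrix S S ℝ) (ph : S → ℝ) : Matrix S S ℝ :=
  Matrix.of fun x y => P x y * |ph y - ph x|

theorem DD_nonneg (h : Rev p P) (ph : S → ℝ) (x y : S) : 0 ≤ DD P ph x y :=
  mul_nonneg (h.P0 x y) (abs_nonneg _)

/-- kernel inequality -/
theorem kern (h : Rev p P) (ph : S → ℝ) (T : ℕ) (z w : S) :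
    (P ^ T) z w * |ph w - ph z|
      ≤ (∑ k ∈ range T, P ^ k * (DD P ph * P ^ (T - 1 - k))) z w := by
  induction T generalizing z with
  | zero =>
    simp only [pow_zero, Matrix.one_apply, Finset.range_zero, Finset.sum_empty, Matrix.zero_apply]
    by_cases hzw : z = w
    · subst hzw; simp
    · simp [hzw]
  | succ T ih =>
    rw [Finset.sum_range_succ']
    have e1 : ∀ k ∈ range T, P ^ (k + 1) * (DD P ph * P ^ (T + 1 - 1 - (k + 1)))
        = P * (P ^ k * (DD P ph * P ^ (T - 1 - k))) := by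
      intro k hk
      have : T + 1 - 1 - (k + 1) = T - 1 - k := by omega
      rw [this, pow_succ', Matrix.mul_assoc]
    rw [Finset.sum_congr rfl e1, ← Finset.mul_sum]
    have e2 : P ^ 0 * (DD P ph * P ^ (T + 1 - 1 - 0)) = DD P ph * P ^ T := by
      simp
    rw [e2, Matrix.add_apply, Matrix.mul_apply, Matrix.mul_apply, ← Finset.sum_add_distrib,
      pow_succ', Matrix.mul_apply, Finset.sum_mul]
    refine Finset.sum_le_sum fun y _ => ?_
    have h1 := mul_le_mul_of_nonneg_left (ih y) (h.P0 z y)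
    have h2 : |ph w - ph z| ≤ |ph w - ph y| + |ph y - ph z| := abs_sub_le _ _ _
    have h3 : 0 ≤ P z y * (P ^ T) y w := mul_nonneg (h.P0 z y) ((h.pow T).P0 y w)
    have h4 := mul_le_mul_of_nonneg_left h2 h3
    have e3 : DD P ph z y = P z y * |ph y - ph z| := rfl
    rw [e3]
    calc P z y * (P ^ T) y w * |ph w - ph z|
        ≤ P z y * (P ^ T) y w * (|ph w - ph y| + |ph y - ph z|) := h4
      _ = P z y * ((P ^ T) y w * |ph w - ph y|) + P z y * |ph y - ph z| * (P ^ T) y w := by ring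
      _ ≤ _ := by linarith

theorem four (A D B : Matrix S S ℝ) (g : S → S → ℝ) :
    EE p (A * (D * B)) g
      = ∑ z, ∑ x, p z * A z x * ∑ y, D x y * ∑ w, B y w * g z w := by
  unfold EE
  refine Finset.sum_congr rfl fun z _ => ?_
  have e1 : ∑ w, p z * (A * (D * B)) z w * g z w = p z * ((A * (D * B)) *ᵥ (g z)) z := by
    simp only [Matrix.mulVec, dotProduct, Finset.mul_sum]
    exact Finset.sum_congr rfl fun w _ => by ring
  rw [e1, ← Matrix.mulVec_mulVec, ← Matrix.mulVec_mulVec]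
  have e2 : (A *ᵥ (D *ᵥ (B *ᵥ (g z)))) z = ∑ x, A z x * ∑ y, D x y * ∑ w, B y w * g z w := rfl
  rw [e2, Finset.mul_sum]
  exact Finset.sum_congr rfl fun x _ => by ring

theorem three (h : Rev p P) (ph F : S → ℝ) (k l : ℕ) :
    EE p (P ^ k * (DD P ph * P ^ l)) (fun z w => (F w - F z) ^ 2)
      ≤ 3 * (RR p (P ^ l) (fun x => ∑ y, P x y * |ph y - ph x|) F
          + EE p P (fun x y => |ph y - ph x| * (F y - F x) ^ 2)
          + RR p (P ^ k) (fun x => ∑ y, P x y * |ph y - ph x|) F) := by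
  rw [four]
  set A := P ^ k with hA
  set B := P ^ l with hB
  have hAr : Rev p A := h.pow k
  have hBr : Rev p B := h.pow l
  set ka : S → ℝ := fun x => ∑ y, P x y * |ph y - ph x| with hka
  set r : S → ℝ := fun y => ∑ w, B y w * (F w - F y) ^ 2 with hr
  set G1 : S → ℝ := fun x => ∑ y, DD P ph x y * r y with hG1
  set G2 : S → ℝ := fun x => ∑ y, DD P ph x y * (F y - F x) ^ 2 with hG2
  have h1 : ∀ z x y, ∑ w, B y w * (F w - F z) ^ 2
      ≤ 3 * r y + 3 * (F y - F x) ^ 2 + 3 * (F x - F z) ^ 2 := by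
    intro z x y
    have e1 : 3 * r y + 3 * (F y - F x) ^ 2 + 3 * (F x - F z) ^ 2
        = ∑ w, B y w * (3 * (F w - F y) ^ 2 + 3 * (F y - F x) ^ 2 + 3 * (F x - F z) ^ 2) := by
      have : ∀ w, B y w * (3 * (F w - F y) ^ 2 + 3 * (F y - F x) ^ 2 + 3 * (F x - F z) ^ 2)
          = 3 * (B y w * (F w - F y) ^ 2)
            + (3 * (F y - F x) ^ 2 + 3 * (F x - F z) ^ 2) * B y w := fun w => by ring
      simp only [this]
      rw [Finset.sum_add_distrib, ← Finset.mul_sum, ← Finset.mul_sum, hBr.P1]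
      simp only [hr]
      ring
    rw [e1]
    refine Finset.sum_le_sum fun w _ => mul_le_mul_of_nonneg_left ?_ (hBr.P0 y w)
    nlinarith [sq_nonneg ((F w - F y) - (F y - F x)), sq_nonneg ((F w - F y) - (F x - F z)),
      sq_nonneg ((F y - F x) - (F x - F z))]
  have h2 : ∀ z x, ∑ y, DD P ph x y * ∑ w, B y w * (F w - F z) ^ 2
      ≤ 3 * G1 x + 3 * G2 x + 3 * (ka x * (F x - F z) ^ 2) := by
    intro z x
    have e1 : 3 * G1 x + 3 * G2 x + 3 * (ka x * (F x - F z) ^ 2)
        = ∑ y, DD P ph x y * (3 * r y + 3 * (F y - F x) ^ 2 + 3 * (F x - F z) ^ 2) := by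
      simp only [hG1, hG2, hka, Finset.mul_sum, Finset.sum_mul, ← Finset.sum_add_distrib]
      refine Finset.sum_congr rfl fun y _ => ?_
      have e3 : DD P ph x y = P x y * |ph y - ph x| := rfl
      rw [e3]; ring
    rw [e1]
    exact Finset.sum_le_sum fun y _ => mul_le_mul_of_nonneg_left (h1 z x y) (DD_nonneg h ph x y)
  have h3 : ∑ z, ∑ x, p z * A z x * ∑ y, DD P ph x y * ∑ w, B y w * (F w - F z) ^ 2
      ≤ EE p A (fun z x => (3 * G1 x + 3 * G2 x) + 3 * (ka x * (F x - F z) ^ 2)) := by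
    unfold EE
    exact Finset.sum_le_sum fun z _ => Finset.sum_le_sum fun x _ =>
      mul_le_mul_of_nonneg_left (h2 z x) (mul_nonneg (h.p0 z) (hAr.P0 z x))
  refine le_trans h3 ?_
  rw [EE_add, EE_add, EE_smul, EE_smul, EE_smul, EE_right hAr G1, EE_right hAr G2]
  have e4 : EE p A (fun z x => ka x * (F x - F z) ^ 2) = RR p A ka F := by
    rw [EE_symm hAr]
    unfold RR
    congr 1
    funext x y; ring
  have e5 : ∑ x, p x * G2 x = EE p P (fun x y => |ph y - ph x| * (F y - F x) ^ 2) := by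
    unfold EE
    simp only [hG2, Finset.mul_sum]
    refine Finset.sum_congr rfl fun x _ => Finset.sum_congr rfl fun y _ => ?_
    have e3 : DD P ph x y = P x y * |ph y - ph x| := rfl
    rw [e3]; ring
  have e6 : ∑ x, p x * G1 x = RR p B ka F := by
    have a1 : ∑ x, p x * G1 x = EE p P (fun x y => |ph y - ph x| * r y) := by
      unfold EE
      simp only [hG1, Finset.mul_sum]
      refine Finset.sum_congr rfl fun x _ => Finset.sum_congr rfl fun y _ => ?_
      have e3 : DD P ph x y = P x y * |ph y - ph x| := rfl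
      rw [e3]; ring
    rw [a1, EE_symm h]
    unfold RR EE
    refine Finset.sum_congr rfl fun x _ => ?_
    have a2 : ∑ y, p x * P x y * (|ph x - ph y| * r x) = p x * (ka x * r x) := by
      simp only [hka, Finset.sum_mul, Finset.mul_sum]
      refine Finset.sum_congr rfl fun y _ => ?_
      rw [abs_sub_comm (ph x) (ph y)]; ring
    rw [a2]
    simp only [hr, Finset.mul_sum]
    exact Finset.sum_congr rfl fun y _ => by ring
  rw [e4, e5, e6]
  linarith

theorem EE_matsum {ι : Type*} (s : Finset ι) (Q : ι → Matrix S S ℝ) (g : S → S → ℝ) :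
    EE p (∑ k ∈ s, Q k) g = ∑ k ∈ s, EE p (Q k) g := by
  unfold EE
  rw [Finset.sum_comm (s := s)]
  refine Finset.sum_congr rfl fun z _ => ?_
  rw [Finset.sum_comm (s := s)]
  refine Finset.sum_congr rfl fun w _ => ?_
  rw [Matrix.sum_apply, Finset.mul_sum, Finset.sum_mul]

theorem EE_kern (h : Rev p P) (ph : S → ℝ) (T : ℕ) (g : S → S → ℝ) (hg : ∀ z w, 0 ≤ g z w) :
    EE p (P ^ T) (fun z w => |ph w - ph z| * g z w)
      ≤ ∑ k ∈ range T, EE p (P ^ k * (DD P ph * P ^ (T - 1 - k))) g := by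
  rw [← EE_matsum]
  unfold EE
  refine Finset.sum_le_sum fun z _ => Finset.sum_le_sum fun w _ => ?_
  have b1 := kern h ph T z w
  have b2 := mul_le_mul_of_nonneg_right (mul_le_mul_of_nonneg_left b1 (h.p0 z)) (hg z w)
  calc _ = p z * ((P ^ T) z w * |ph w - ph z|) * g z w := by ring
    _ ≤ _ := b2

theorem main_bound (h : Rev p P) (f : S → ℕ → ℝ) (n : ℕ) (d : ℝ) (hd0 : 0 ≤ d)
    (hf : ∀ x y, 0 < P x y → ww f n x y ≤ 1)
    (hd : ∀ x, ∑ y, P x y * ww f n x y ≤ d) (T : ℕ) (A : ℝ) (hA : 0 < A)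
    (hT : (T : ℝ) ^ 2 * (d ^ 2) ^ 3 ≤ d * A ^ 3) :
    EE p (P ^ T) (fun z w => ∑ t ∈ range n, |f w t - f z t| * (FF f t w - FF f t z) ^ 2)
      ≤ T * (3 * (2 * (T * (d ^ 2 + 11 * (d * A))) + d)) := by
  rw [EE_sum]
  have h1 : ∀ t ∈ range n, EE p (P ^ T) (fun z w => |f w t - f z t| * (FF f t w - FF f t z) ^ 2)
      ≤ ∑ k ∈ range T, 3 * (RR p (P ^ (T - 1 - k)) (kap P f t) (FF f t)
          + EE p P (fun x y => |f y t - f x t| * (FF f t y - FF f t x) ^ 2)
          + RR p (P ^ k) (kap P f t) (FF f t)) := by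
    intro t _
    refine le_trans (EE_kern h (fun x => f x t) T _ (fun z w => sq_nonneg _))
      (Finset.sum_le_sum fun k _ => ?_)
    exact three h (fun x => f x t) (FF f t) k (T - 1 - k)
  refine le_trans (Finset.sum_le_sum h1) ?_
  rw [Finset.sum_comm]
  have h2 : ∀ k ∈ range T, ∑ t ∈ range n, 3 * (RR p (P ^ (T - 1 - k)) (kap P f t) (FF f t)
          + EE p P (fun x y => |f y t - f x t| * (FF f t y - FF f t x) ^ 2)
          + RR p (P ^ k) (kap P f t) (FF f t)) ≤ 3 * (2 * (T * (d ^ 2 + 11 * (d * A))) + d) := by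
    intro k hk
    have hk' := Finset.mem_range.mp hk
    rw [← Finset.mul_sum, Finset.sum_add_distrib, Finset.sum_add_distrib]
    have hb : ∀ j, j ≤ T → ∑ t ∈ range n, RR p (P ^ j) (kap P f t) (FF f t)
        ≤ T * (d ^ 2 + 11 * (d * A)) := by
      intro j hj
      have hj' : (j : ℝ) ≤ T := by exact_mod_cast hj
      have := R_bound h f n d hd0 hf hd j A hA
        (le_trans (mul_le_mul_of_nonneg_right (pow_le_pow_left₀ (Nat.cast_nonneg _) hj' 2)
          (by positivity)) hT)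
      refine le_trans this (mul_le_mul_of_nonneg_right hj' (by positivity))
    have hm : ∑ t ∈ range n, EE p P (fun x y => |f y t - f x t| * (FF f t y - FF f t x) ^ 2)
        ≤ d := by
      rw [← EE_sum]
      have : EE p P (fun x y => ∑ t ∈ range n, |f y t - f x t| * (FF f t y - FF f t x) ^ 2)
          ≤ EE p P (ww f n) := by
        refine EE_mono h fun x y hxy => ?_
        unfold ww
        refine Finset.sum_le_sum fun t ht => ?_
        have h2 : (FF f t y - FF f t x) ^ 2 ≤ 1 := by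
          rw [← sq_abs]
          exact pow_le_one₀ (abs_nonneg _)
            (le_trans (FF_diff f n x y t (Finset.mem_range.mp ht)) (hf x y hxy))
        have := mul_le_mul_of_nonneg_left h2 (abs_nonneg (f y t - f x t))
        linarith
      exact le_trans this (EE_ww h f n d hd)
    have b1 := hb (T - 1 - k) (by omega)
    have b2 := hb k hk'.le
    linarith
  refine le_trans (Finset.sum_le_sum h2) ?_
  simp

theorem first_moment (h : Rev p P) (f : S → ℕ → ℝ) (n : ℕ) (d : ℝ)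
    (hd : ∀ x, ∑ y, P x y * ww f n x y ≤ d) (T : ℕ) :
    EE p (P ^ T) (ww f n) ≤ T * d := by
  have e0 : EE p (P ^ T) (ww f n)
      = ∑ t ∈ range n, EE p (P ^ T) (fun z w => |f w t - f z t| * 1) := by
    rw [← EE_sum]
    simp only [mul_one]
    rfl
  rw [e0]
  have h1 : ∀ t ∈ range n, EE p (P ^ T) (fun z w => |f w t - f z t| * 1)
      ≤ ∑ k ∈ range T, ∑ x, p x * kap P f t x := by
    intro t _
    refine le_trans (EE_kern h (fun x => f x t) T (fun _ _ => 1) (fun _ _ => zero_le_one))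
      (Finset.sum_le_sum fun k _ => ?_)
    rw [four]
    simp only [mul_one, (h.pow (T - 1 - k)).P1]
    have := EE_right (h.pow k) (fun x => ∑ y, DD P (fun x => f x t) x y)
    unfold EE at this
    rw [this]
    rfl
  refine le_trans (Finset.sum_le_sum h1) ?_
  rw [Finset.sum_comm]
  have h2 : ∀ k ∈ range T, ∑ t ∈ range n, ∑ x, p x * kap P f t x ≤ d := by
    intro k _
    rw [Finset.sum_comm]
    calc ∑ x, ∑ t ∈ range n, p x * kap P f t x ≤ ∑ x, p x * d := by
          refine Finset.sum_le_sum fun x _ => ?_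
          rw [← Finset.mul_sum]
          exact mul_le_mul_of_nonneg_left (kap_sum f n d hd x) (h.p0 x)
      _ = d := by rw [← Finset.sum_mul, h.p1, one_mul]
  refine le_trans (Finset.sum_le_sum h2) ?_
  simp

end main

end Vale.Agent.P125
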