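import Vale.Agent.P125.Summing

open Finset Matrix

set_option linter.unusedSectionVars false

namespace Vale.Agent.P125

variable {S : Type*} [Fintype S] [DecidableEq S]
variable {p : S → ℝ} {P : Matrix S S ℝ}

theorem third_num (th b E : ℝ) (hb : 0 ≤ b) (hth : th = b ^ 3)
    (hE : E ≤ 9 * th * (2 * th * (1 + 11 * b ^ 2) + 1)) :
    E ≤ 225 * (th + b ^ 8) := by
  have h8 : b ^ 8 = th ^ 2 * b ^ 2 := by rw [hth]; ring
  rw [h8]
  have hth0 : 0 ≤ th := by rw [hth]; positivity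
  refine le_trans hE ?_
  have key : 18 * th ^ 2 ≤ 216 * th + 27 * (th ^ 2 * b ^ 2) := by
    rcases le_total b 1 with h | h
    · have : th ≤ 1 := by rw [hth]; exact pow_le_one₀ hb h
      have h2 : 0 ≤ th ^ 2 * b ^ 2 := by positivity
      nlinarith
    · have h1 : 1 ≤ b ^ 2 := one_le_pow₀ h
      have h2 : th ^ 2 * 1 ≤ th ^ 2 * b ^ 2 := mul_le_mul_of_nonneg_left h1 (sq_nonneg _)
      nlinarith
  nlinarith

theorem pt_small (X w Y : ℝ) (hX : 0 ≤ X) (hw : X ≤ w) (hY : X ^ 3 ≤ Y) (hYn : 0 ≤ Y) :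
    X ^ ((9 : ℝ) / 8) ≤ w + Y := by
  rcases le_total X 1 with h | h
  · have : X ^ ((9 : ℝ) / 8) ≤ X := by
      rcases hX.eq_or_lt with e | e
      · rw [← e, Real.zero_rpow (by norm_num)]
      · calc X ^ ((9 : ℝ) / 8) ≤ X ^ (1 : ℝ) :=
              Real.rpow_le_rpow_of_exponent_ge e h (by norm_num)
          _ = X := Real.rpow_one X
    linarith
  · have : X ^ ((9 : ℝ) / 8) ≤ X ^ 3 := by
      calc X ^ ((9 : ℝ) / 8) ≤ X ^ (3 : ℝ) :=
              Real.rpow_le_rpow_of_exponent_le h (by norm_num)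
          _ = X ^ 3 := by
              rw [← Real.rpow_natCast]; norm_num
    linarith [le_trans hX hw]

theorem pt_large (X Y b : ℝ) (hb : 0 < b) (hX : 0 ≤ X) (hY : X ^ 3 ≤ Y) :
    X ^ ((9 : ℝ) / 8) ≤ (3 / 8) * (1 / b ^ 5) * Y + (5 / 8) * b ^ 3 := by
  have h1 := Real.geom_mean_le_arith_mean2_weighted (w₁ := 3 / 8) (w₂ := 5 / 8)
    (p₁ := X ^ 3 / b ^ 5) (p₂ := b ^ 3) (by norm_num) (by norm_num)
    (div_nonneg (pow_nonneg hX 3) (pow_nonneg hb.le 5)) (pow_nonneg hb.le 3) (by norm_num)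
  have e1 : (X ^ 3 / b ^ 5) ^ ((3 : ℝ) / 8) * (b ^ 3) ^ ((5 : ℝ) / 8) = X ^ ((9 : ℝ) / 8) := by
    rw [Real.div_rpow (pow_nonneg hX 3) (pow_nonneg hb.le 5)]
    rw [← Real.rpow_natCast X 3, ← Real.rpow_natCast b 5, ← Real.rpow_natCast b 3,
      ← Real.rpow_mul hX, ← Real.rpow_mul hb.le, ← Real.rpow_mul hb.le]
    have e2 : ((5 : ℕ) : ℝ) * (3 / 8) = ((3 : ℕ) : ℝ) * (5 / 8) := by norm_num
    have e3 : ((3 : ℕ) : ℝ) * (3 / 8) = 9 / 8 := by norm_num
    rw [e2, e3]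
    have hpos : 0 < b ^ (((3 : ℕ) : ℝ) * (5 / 8)) := Real.rpow_pos_of_pos hb _
    field_simp
  rw [e1] at h1
  have h2 : X ^ 3 / b ^ 5 ≤ Y / b ^ 5 := div_le_div_of_nonneg_right hY (pow_nonneg hb.le 5)
  have e4 : (3 / 8) * (1 / b ^ 5) * Y = (3 / 8) * (Y / b ^ 5) := by ring
  rw [e4]
  linarith

theorem final_bounds (h : Rev p P) (g : S → ℕ → ℝ) (n : ℕ) (d : ℝ) (hd0 : 0 < d)
    (hf : ∀ x y, 0 < P x y → ww g n x y ≤ 1)
    (hd : ∀ x, ∑ y, P x y * ww g n x y ≤ d) (T : ℕ) (X : S → S → ℝ)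
    (hX0 : ∀ z w, 0 ≤ X z w) (hX1 : ∀ z w, X z w ≤ ww g n z w)
    (hX3 : ∀ z w, X z w ^ 3
      ≤ 3 * ∑ t ∈ range n, |g w t - g z t| * (FF g t w - FF g t z) ^ 2) :
    EE p (P ^ T) (fun z w => X z w ^ 3) ≤ 225 * (T * d + (T * d) ^ ((8 : ℝ) / 3)) ∧
    EE p (P ^ T) (fun z w => X z w ^ ((9 : ℝ) / 8)) ≤ 226 * (T * d) := by
  rcases Nat.eq_zero_or_pos T with hT0 | hT0
  · subst hT0
    have hX00 : ∀ x, X x x = 0 := by
      intro x
      refine le_antisymm ?_ (hX0 x x)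
      refine le_trans (hX1 x x) ?_
      simp [ww]
    have e1 : EE p (P ^ 0) (fun z w => X z w ^ 3) = 0 := by
      unfold EE
      refine Finset.sum_eq_zero fun x _ => Finset.sum_eq_zero fun y _ => ?_
      simp only [pow_zero, Matrix.one_apply]
      by_cases hxy : x = y
      · subst hxy; rw [hX00]; simp
      · simp [hxy]
    have e2 : EE p (P ^ 0) (fun z w => X z w ^ ((9 : ℝ) / 8)) = 0 := by
      unfold EE
      refine Finset.sum_eq_zero fun x _ => Finset.sum_eq_zero fun y _ => ?_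
      simp only [pow_zero, Matrix.one_apply]
      by_cases hxy : x = y
      · subst hxy; rw [hX00, Real.zero_rpow (by norm_num)]; simp
      · simp [hxy]
    rw [e1, e2]
    constructor
    · have : (0 : ℝ) ≤ (((0 : ℕ) : ℝ) * d) ^ ((8 : ℝ) / 3) :=
        Real.rpow_nonneg (by positivity) _
      have h2 : ((0 : ℕ) : ℝ) * d = 0 := by simp
      rw [h2] at this ⊢
      linarith
    · simp
  have hTr : (0 : ℝ) < T := by exact_mod_cast hT0
  set th : ℝ := T * d with hth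
  have hthp : 0 < th := mul_pos hTr hd0
  set b : ℝ := th ^ ((1 : ℝ) / 3) with hb
  have hbp : 0 < b := Real.rpow_pos_of_pos hthp _
  have hb3 : th = b ^ 3 := by
    rw [hb, ← Real.rpow_natCast, ← Real.rpow_mul hthp.le]
    norm_num
  have hb8 : th ^ ((8 : ℝ) / 3) = b ^ 8 := by
    rw [hb, ← Real.rpow_natCast, ← Real.rpow_mul hthp.le]
    norm_num
  set Y : S → S → ℝ := fun z w =>
    3 * ∑ t ∈ range n, |g w t - g z t| * (FF g t w - FF g t z) ^ 2 with hY
  have hYn : ∀ z w, 0 ≤ Y z w := fun z w => le_trans (pow_nonneg (hX0 z w) 3) (hX3 z w)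
  have hmain := main_bound h g n d hd0.le hf hd T (d * b ^ 2) (by positivity) (by
    have e1 : d * (d * b ^ 2) ^ 3 = d ^ 4 * (b ^ 3) ^ 2 := by ring
    rw [e1, ← hb3, hth]
    exact le_of_eq (by ring))
  have hEY : EE p (P ^ T) Y ≤ 9 * th * (2 * th * (1 + 11 * b ^ 2) + 1) := by
    rw [hY, EE_smul]
    have := mul_le_mul_of_nonneg_left hmain (by norm_num : (0 : ℝ) ≤ 3)
    refine le_trans this (le_of_eq ?_)
    rw [hth]; ring
  have hEY2 := third_num th b _ hbp.le hb3 hEY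
  have hR := h.pow T
  rw [hb8]
  refine ⟨le_trans (EE_mono hR fun z w _ => hX3 z w) hEY2, ?_⟩
  rcases le_total b 1 with hb1 | hb1
  · have h1 : EE p (P ^ T) (fun z w => X z w ^ ((9 : ℝ) / 8))
        ≤ EE p (P ^ T) (fun z w => ww g n z w + Y z w) :=
      EE_mono hR fun z w _ => pt_small _ _ _ (hX0 z w) (hX1 z w) (hX3 z w) (hYn z w)
    rw [EE_add] at h1
    have h2 := first_moment h g n d hd T
    have h3 : EE p (P ^ T) (fun x y => Y x y) ≤ 225 * th := by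
      refine le_trans hEY ?_
      have hb2 : b ^ 2 ≤ 1 := pow_le_one₀ hbp.le hb1
      have hth1 : th ≤ 1 := by rw [hb3]; exact pow_le_one₀ hbp.le hb1
      have h4 : 2 * th * (1 + 11 * b ^ 2) + 1 ≤ 25 := by nlinarith
      have := mul_le_mul_of_nonneg_left h4 (by positivity : (0 : ℝ) ≤ 9 * th)
      linarith
    have h5 : EE p (P ^ T) (fun x y => ww g n x y) ≤ th := h2
    linarith
  · have h1 : EE p (P ^ T) (fun z w => X z w ^ ((9 : ℝ) / 8))
        ≤ EE p (P ^ T) (fun z w => (3 / 8) * (1 / b ^ 5) * Y z w + (5 / 8) * b ^ 3) :=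
      EE_mono hR fun z w _ => pt_large _ _ b hbp (hX0 z w) (hX3 z w)
    rw [EE_add, EE_smul, EE_const hR] at h1
    have h3 : EE p (P ^ T) (fun x y => Y x y) ≤ 225 * b ^ 8 := by
      refine le_trans hEY ?_
      have hb2 : 1 ≤ b ^ 2 := one_le_pow₀ hb1
      have hth1 : 1 ≤ th := by rw [hb3]; exact one_le_pow₀ hb1
      have h4 : 2 * th * (1 + 11 * b ^ 2) + 1 ≤ 25 * (th * b ^ 2) := by
        have : th * 1 ≤ th * b ^ 2 := mul_le_mul_of_nonneg_left hb2 hthp.le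
        nlinarith
      have := mul_le_mul_of_nonneg_left h4 (by positivity : (0 : ℝ) ≤ 9 * th)
      refine le_trans this (le_of_eq ?_)
      rw [hb3]; ring
    have h5 : (3 / 8) * (1 / b ^ 5) * EE p (P ^ T) (fun x y => Y x y)
        ≤ (3 / 8) * (1 / b ^ 5) * (225 * b ^ 8) :=
      mul_le_mul_of_nonneg_left h3 (by positivity)
    have h6 : (3 / 8) * (1 / b ^ 5) * (225 * b ^ 8) = (675 / 8) * b ^ 3 := by
      field_simp
      ring
    rw [h6] at h5
    have h7 : 0 < b ^ 3 := by positivity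
    rw [hb3]
    linarith

end Vale.Agent.P125
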